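/-
P235-M, rounds which delete all vertices on shortest paths between two ends (helper899): the rows.
-/
import Vale.Agent.P235.R2.H341.W2
import Vale.Agent.P235.R2.H611.TermFinal

namespace Vale.Agent.P235.R2.H899

open Vale.Agent.P235 Vale.Agent.P235.Red

/-- `L` is a set of vertices, `h` is nonexpansive on `L`, every vertex of `L` outside `B₁` has a
neighbour in `L` along a tight edge downwards, every vertex of `L` outside `B₂` has one upwards -/
structure TightSet {V : Type} (G : SimpleGraph V) (ℓ : Sym2 V → ℝ) (h : V → ℝ)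
    (L B₁ B₂ : Set V) : Prop where
  ne : L.Nonempty
  lip : ∀ u ∈ L, ∀ v ∈ L, |h u - h v| ≤ pathDist G ℓ u v
  low : ∀ v ∈ L, v ∉ B₁ → ∃ u ∈ L, G.Adj v u ∧ ℓ s(v, u) = h v - h u
  high : ∀ v ∈ L, v ∉ B₂ → ∃ u ∈ L, G.Adj v u ∧ ℓ s(v, u) = h u - h v

/-- two sets `N false`, `N true` in `L`, on which `h` is isometric, which contain all neighbours in
`L` of the vertices of `K` -/
structure TwoLanes {V : Type} (G : SimpleGraph V) (ℓ : Sym2 V → ℝ) (h : V → ℝ) (L K : Set V)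
    (N : Bool → Set V) : Prop where
  ne : ∀ i, (N i).Nonempty
  sub : ∀ i, N i ⊆ L
  iso : ∀ i, ∀ a ∈ N i, ∀ b ∈ N i, pathDist G ℓ a b ≤ |h a - h b|
  att : ∀ x ∈ K, ∀ a ∈ L, G.Adj x a → ∃ i, a ∈ N i

/-- (B) the neighbours in `L` of a connected set outside `L` lie on two lanes of `L` -/
def RowTwo : Prop :=
  ∀ (V : Type) [Finite V] (G : SimpleGraph V) (σ : Equiv.Perm G.Dart) (ℓ : Sym2 V → ℝ) (h : V → ℝ)
    (L B₁ B₂ : Set V), G.Connected → PlaneMap G σ → (∀ e ∈ G.edgeSet, 0 < ℓ e) →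
    W3.Ends σ B₁ B₂ → TightSet G ℓ h L B₁ B₂ →
    ∀ K : Set V, (G.induce K).Connected → Disjoint K L →
    ∃ N : Bool → Set V, TwoLanes G ℓ h L K N

end Vale.Agent.P235.R2.H899
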