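import Vale.Agent.P235.R2.H582.KprSpec
import Vale.Agent.P235.Comp.PathSum
import Mathlib.Analysis.Complex.ExponentialBounds

/-!
# Random retractions onto any set of vertices, from one random partition in the quasi-hyperbolic
metric (helper899)

`A x = d(x, X)`; the edges get the length `ℓ / min (A x) (A y)`, and `1` if they touch `X`.
-/

set_option autoImplicit false

open SimpleGraph

namespace Vale.Agent.P235.H899Q

open Vale.Agent.P235 Vale.Agent.P235.Kpr

section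

variable {V : Type} {G : SimpleGraph V} {ℓ : Sym2 V → ℝ} {A : V → ℝ}

/-- quasi-hyperbolic lengths -/
noncomputable def qh (ℓ : Sym2 V → ℝ) (A : V → ℝ) : Sym2 V → ℝ :=
  Sym2.lift ⟨fun x y => if 0 < min (A x) (A y) then ℓ s(x, y) / min (A x) (A y) else 1, by
    intro x y
    show (if 0 < min (A x) (A y) then ℓ s(x, y) / min (A x) (A y) else 1) =
      if 0 < min (A y) (A x) then ℓ s(y, x) / min (A y) (A x) else 1
    rw [min_comm (A x), Sym2.eq_swap]⟩

theorem qh_mk (x y : V) : qh ℓ A s(x, y) =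
    if 0 < min (A x) (A y) then ℓ s(x, y) / min (A x) (A y) else 1 := rfl

theorem qh_pos (hℓ : ∀ e ∈ G.edgeSet, 0 < ℓ e) : ∀ e ∈ G.edgeSet, 0 < qh ℓ A e := by
  intro e
  induction e with
  | _ x y =>
    intro he
    rw [qh_mk]
    split_ifs with h
    · exact div_pos (hℓ _ he) h
    · exact one_pos

theorem walk_exp (hℓ : ∀ e ∈ G.edgeSet, 0 < ℓ e)
    (hA : ∀ x y, G.Adj x y → A y ≤ A x + ℓ s(x, y)) {x y : V} (w : G.Walk x y) :
    0 < A x → (w.edges.map (qh ℓ A)).sum < 1 →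
      0 < A y ∧ (w.edges.map ℓ).sum + A x ≤ Real.exp ((w.edges.map (qh ℓ A)).sum) * A x := by
  induction w with
  | nil => intro hx _; simpa using hx
  | @cons x v y h p ih =>
    intro hx hS
    rw [Walk.edges_cons, List.map_cons, List.sum_cons] at hS
    rw [Walk.edges_cons, List.map_cons, List.sum_cons, List.map_cons, List.sum_cons]
    have hp : 0 ≤ (p.edges.map (qh ℓ A)).sum := walk_nonneg (qh_pos hℓ) p
    have hq := qh_pos (A := A) hℓ _ (G.mem_edgeSet.2 h)
    have hpos : 0 < min (A x) (A v) := by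
      by_contra hn
      rw [qh_mk, if_neg hn] at hS
      linarith
    have hv : 0 < A v := (lt_min_iff.1 hpos).2
    obtain ⟨hy, hle⟩ := ih hv (by linarith)
    refine ⟨hy, ?_⟩
    have hlpos := hℓ _ (G.mem_edgeSet.2 h)
    have hl : ℓ s(x, v) ≤ qh ℓ A s(x, v) * A x := by
      rw [qh_mk, if_pos hpos, div_mul_eq_mul_div, le_div_iff₀ hpos]
      exact mul_le_mul_of_nonneg_left (min_le_left _ _) hlpos.le
    set lam := qh ℓ A s(x, v)
    set S := (p.edges.map (qh ℓ A)).sum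
    set L := (p.edges.map ℓ).sum
    have hE : 1 ≤ Real.exp S := Real.one_le_exp hp
    have h1 : L ≤ (Real.exp S - 1) * (A x + ℓ s(x, v)) := by
      have : (Real.exp S - 1) * A v ≤ (Real.exp S - 1) * (A x + ℓ s(x, v)) :=
        mul_le_mul_of_nonneg_left (hA x v h) (by linarith)
      linarith
    have h2 : 1 + lam ≤ Real.exp lam := by
      have := Real.add_one_le_exp lam
      linarith
    rw [Real.exp_add]
    have h3 : Real.exp S * (A x + ℓ s(x, v)) ≤ Real.exp S * (Real.exp lam * A x) := by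
      refine mul_le_mul_of_nonneg_left ?_ (by linarith)
      have : (1 + lam) * A x ≤ Real.exp lam * A x := mul_le_mul_of_nonneg_right h2 hx.le
      linarith
    linarith

theorem exp_two_fifths : Real.exp (2 / 5) ≤ 3 / 2 := by
  by_contra h
  push Not at h
  have h1 : (3 / 2 : ℝ) ^ 5 < Real.exp (2 / 5) ^ 5 := by gcongr
  have h2 : Real.exp (2 / 5) ^ 5 = Real.exp 1 ^ 2 := by
    rw [← Real.exp_nat_mul, ← Real.exp_nat_mul]
    norm_num
  rw [h2] at h1
  have h3 := Real.exp_one_lt_d9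
  have h4 := Real.exp_pos 1
  nlinarith

end

/-- random retractions from random partitions in the quasi-hyperbolic lengths -/
theorem retr_gen {V : Type} [Finite V] {G : SimpleGraph V} {ℓ : Sym2 V → ℝ}
    (hc : G.Connected) (hℓ : ∀ e ∈ G.edgeSet, 0 < ℓ e) {X : Set V} {ν : V → V}
    (hν : Near G ℓ X ν) {Ω : Type} [Fintype Ω] [Nonempty Ω] (c : Ω → V → V) {K ε : ℝ} (hK : 1 ≤ K)
    (hc1 : ∀ ω u v, c ω u = c ω v →
      pathDist G (qh ℓ fun v => pathDist G ℓ v (ν v)) u v ≤ 2 / 5)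
    (hc2 : ∀ u v, G.Adj u v → ({ω | c ω u ≠ c ω v}.ncard : ℝ) ≤
      Fintype.card Ω * (K * qh ℓ (fun v => pathDist G ℓ v (ν v)) s(u, v) + ε))
    (hε : ∀ x y, G.Adj x y →
      ε * (4 * min (pathDist G ℓ x (ν x)) (pathDist G ℓ y (ν y)) + 3 * ℓ s(x, y)) ≤ ℓ s(x, y)) :
    ∃ (ι : Type) (_ : Fintype ι) (w : ι → ℝ) (π : ι → V → V), (∀ i, 0 ≤ w i) ∧ ∑ i, w i = 1 ∧
      (∀ i v, π i v ∈ X) ∧ (∀ i, ∀ v ∈ X, π i v = v) ∧
      (∀ i v, pathDist G ℓ v (π i v) ≤ 2 * pathDist G ℓ v (ν v)) ∧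
      ∀ u v, G.Adj u v → ∑ i, w i * pathDist G ℓ (π i u) (π i v) ≤ (4 * K + 4) * ℓ s(u, v) := by
  classical
  have hd := pathDist_isMet hc hℓ
  set A : V → ℝ := fun v => pathDist G ℓ v (ν v) with hAdef
  have hA0 : ∀ v, 0 ≤ A v := fun v => hd.nonneg _ _
  have hApos : ∀ v, v ∉ X → 0 < A v := by
    intro v hv
    exact hd.pos _ _ fun h => hv (h ▸ hν.mem v)
  have hAX : ∀ v ∈ X, A v = 0 := by
    intro v hv
    simp only [hAdef, hν.self v hv, hd.self]
  have hlip : ∀ u v, A u ≤ pathDist G ℓ u v + A v := fun u v => hν.lip hc hℓ u v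
  have hA : ∀ x y, G.Adj x y → A y ≤ A x + ℓ s(x, y) := by
    intro x y h
    have h1 := hlip y x
    have h2 := pathDist_adj hℓ h
    rw [hd.symm y x] at h1
    linarith
  -- clusters are small
  have hclus : ∀ ω u v, c ω u = c ω v → 0 < A u →
      0 < A v ∧ pathDist G ℓ u v ≤ A u / 2 := by
    intro ω u v h hu
    have h1 := hc1 ω u v h
    obtain ⟨p, hp⟩ := exists_geodesic hc (qh_pos (A := A) hℓ) u v
    have h2 : (p.edges.map (qh ℓ A)).sum ≤ 2 / 5 := by rw [hp]; exact h1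
    obtain ⟨h3, h4⟩ := walk_exp hℓ hA p hu (by linarith)
    refine ⟨h3, ?_⟩
    have h5 : Real.exp ((p.edges.map (qh ℓ A)).sum) ≤ 3 / 2 :=
      (Real.exp_le_exp.2 h2).trans exp_two_fifths
    have h6 : Real.exp ((p.edges.map (qh ℓ A)).sum) * A u ≤ 3 / 2 * A u :=
      mul_le_mul_of_nonneg_right h5 hu.le
    have h7 := pathDist_le hℓ p
    linarith
  -- representatives
  let rep : Ω → V → V := fun ω t => if h : ∃ u, c ω u = t then h.choose else t
  have hrep1 : ∀ ω x, c ω (rep ω (c ω x)) = c ω x := by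
    intro ω x
    have h : ∃ u, c ω u = c ω x := ⟨x, rfl⟩
    simp only [rep, dif_pos h]
    exact h.choose_spec
  let π : Ω → V → V := fun ω x => if x ∈ X then x else ν (rep ω (c ω x))
  have hπ2 : ∀ ω x, pathDist G ℓ x (π ω x) ≤ 2 * A x := by
    intro ω x
    by_cases hx : x ∈ X
    · simp only [π, if_pos hx, hd.self, hAX x hx]
      norm_num
    · simp only [π, if_neg hx]
      have hx' := hApos x hx
      obtain ⟨h1, h2⟩ := hclus ω x (rep ω (c ω x)) (hrep1 ω x).symm hx'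
      have h3 := hlip (rep ω (c ω x)) x
      rw [hd.symm _ x] at h3
      have h4 := hd.tri x (rep ω (c ω x)) (ν (rep ω (c ω x)))
      have h5 : pathDist G ℓ (rep ω (c ω x)) (ν (rep ω (c ω x))) = A (rep ω (c ω x)) := rfl
      linarith
  have hM : (0 : ℝ) < Fintype.card Ω := by exact_mod_cast Fintype.card_pos
  refine ⟨Ω, inferInstance, fun _ => 1 / (Fintype.card Ω : ℝ), π,
    fun _ => by positivity, ?_, ?_, ?_, hπ2, ?_⟩
  · rw [Finset.sum_const, Finset.card_univ, nsmul_eq_mul]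
    field_simp
  · intro ω v
    by_cases hv : v ∈ X
    · simp only [π, if_pos hv, hv]
    · simp only [π, if_neg hv]
      exact hν.mem _
  · intro ω v hv
    simp only [π, if_pos hv]
  · intro u v huv
    have hl := hℓ _ (G.mem_edgeSet.2 huv)
    have hadj := pathDist_adj hℓ huv
    have hAuv := hA u v huv
    have hAvu : A u ≤ A v + ℓ s(u, v) := by
      have := hA v u huv.symm
      rwa [Sym2.eq_swap] at this
    have hm0 : 0 ≤ min (A u) (A v) := le_min (hA0 u) (hA0 v)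
    have hsum2 : A u + A v ≤ 2 * min (A u) (A v) + ℓ s(u, v) := by
      rcases le_total (A u) (A v) with h | h
      · rw [min_eq_left h]; linarith
      · rw [min_eq_right h]; linarith
    -- every value is at most `4 m + 3 ℓ`
    have hall : ∀ ω, pathDist G ℓ (π ω u) (π ω v) ≤ 4 * min (A u) (A v) + 3 * ℓ s(u, v) := by
      intro ω
      have h1 := hπ2 ω u
      have h2 := hπ2 ω v
      have h3 := hd.tri (π ω u) u (π ω v)
      have h4 := hd.tri u v (π ω v)
      rw [hd.symm (π ω u) u] at h3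
      linarith
    have hsumconst : ∀ M : ℝ, (∀ ω, pathDist G ℓ (π ω u) (π ω v) ≤ M) →
        ∑ ω, 1 / (Fintype.card Ω : ℝ) * pathDist G ℓ (π ω u) (π ω v) ≤ M := by
      intro M hM
      calc ∑ ω, 1 / (Fintype.card Ω : ℝ) * pathDist G ℓ (π ω u) (π ω v)
          ≤ ∑ _ω : Ω, 1 / (Fintype.card Ω : ℝ) * M :=
            Finset.sum_le_sum fun ω _ => mul_le_mul_of_nonneg_left (hM ω) (by positivity)
        _ = M := by
            rw [Finset.sum_const, Finset.card_univ, nsmul_eq_mul]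
            field_simp
    rcases lt_or_ge (min (A u) (A v)) (K * ℓ s(u, v)) with hcase | hcase
    · exact (hsumconst _ hall).trans (by linarith)
    · have hm : 0 < min (A u) (A v) := lt_of_lt_of_le (by positivity) hcase
      have hu : 0 < A u := (lt_min_iff.1 hm).1
      have hv : 0 < A v := (lt_min_iff.1 hm).2
      have huX : u ∉ X := fun h => by rw [hAX u h] at hu; exact lt_irrefl _ hu
      have hvX : v ∉ X := fun h => by rw [hAX v h] at hv; exact lt_irrefl _ hv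
      have hcount := hc2 u v huv
      have h3 := hε u v huv
      rw [qh_mk, if_pos hm] at hcount
      change ε * (4 * min (A u) (A v) + 3 * ℓ s(u, v)) ≤ ℓ s(u, v) at h3
      change ({ω | c ω u ≠ c ω v}.ncard : ℝ) ≤
        Fintype.card Ω * (K * (ℓ s(u, v) / min (A u) (A v)) + ε) at hcount
      set m := min (A u) (A v) with hmdef
      have hbound : ∀ ω, pathDist G ℓ (π ω u) (π ω v) ≤
          (if c ω u ≠ c ω v then (1 : ℝ) else 0) * (4 * m + 3 * ℓ s(u, v)) := by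
        intro ω
        by_cases h : c ω u = c ω v
        · have h1 : π ω u = π ω v := by
            simp only [π, if_neg huX, if_neg hvX, h]
          rw [h1, hd.self, if_neg (not_not.2 h)]
          simp
        · rw [if_pos h, one_mul]
          exact hall ω
      have hnc : ({ω | c ω u ≠ c ω v}.ncard : ℝ) =
          ∑ ω, if c ω u ≠ c ω v then (1 : ℝ) else 0 := by
        rw [Finset.sum_boole, Set.ncard_eq_toFinset_card']
        congr 2
        ext ω
        simp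
      have hS : ∑ ω, 1 / (Fintype.card Ω : ℝ) * pathDist G ℓ (π ω u) (π ω v) ≤
          1 / (Fintype.card Ω : ℝ) *
            (({ω | c ω u ≠ c ω v}.ncard : ℝ) * (4 * m + 3 * ℓ s(u, v))) := by
        rw [hnc, Finset.sum_mul, Finset.mul_sum]
        exact Finset.sum_le_sum fun ω _ => mul_le_mul_of_nonneg_left (hbound ω) (by positivity)
      refine hS.trans ?_
      have hM' : 0 < 4 * m + 3 * ℓ s(u, v) := by linarith
      have h1 : 1 / (Fintype.card Ω : ℝ) *
          (({ω | c ω u ≠ c ω v}.ncard : ℝ) * (4 * m + 3 * ℓ s(u, v))) ≤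
          (K * (ℓ s(u, v) / m) + ε) * (4 * m + 3 * ℓ s(u, v)) := by
        have h2 : 1 / (Fintype.card Ω : ℝ) * ({ω | c ω u ≠ c ω v}.ncard : ℝ) ≤
            K * (ℓ s(u, v) / m) + ε := by
          rw [one_div, inv_mul_le_iff₀ hM]
          exact hcount
        calc 1 / (Fintype.card Ω : ℝ) *
              (({ω | c ω u ≠ c ω v}.ncard : ℝ) * (4 * m + 3 * ℓ s(u, v)))
            = 1 / (Fintype.card Ω : ℝ) * ({ω | c ω u ≠ c ω v}.ncard : ℝ) *
                (4 * m + 3 * ℓ s(u, v)) := by ring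
          _ ≤ _ := mul_le_mul_of_nonneg_right h2 hM'.le
      refine h1.trans ?_
      have h5 : ℓ s(u, v) / m * m = ℓ s(u, v) := div_mul_cancel₀ _ hm.ne'
      have h6 : K * (ℓ s(u, v) / m) ≤ 1 := by
        rw [mul_div_assoc', div_le_one hm]
        exact hcase
      have h7 : K * (ℓ s(u, v) / m) * ℓ s(u, v) ≤ 1 * ℓ s(u, v) :=
        mul_le_mul_of_nonneg_right h6 hl.le
      have h8 : K * (ℓ s(u, v) / m) * m = K * ℓ s(u, v) := by rw [mul_assoc, h5]
      nlinarith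

/-- enough shifts -/
theorem exists_shifts {V : Type} [Finite V] {G : SimpleGraph V} {ℓ : Sym2 V → ℝ}
    (hℓ : ∀ e ∈ G.edgeSet, 0 < ℓ e) (A : V → ℝ) (q : ℝ) :
    ∃ N : ℕ, 0 < N ∧ ∀ x y, G.Adj x y →
      q * (1 / N) * (4 * min (A x) (A y) + 3 * ℓ s(x, y)) ≤ ℓ s(x, y) := by
  obtain ⟨B, hB⟩ := (Set.finite_range
    (fun t : V × V => q * (4 * min (A t.1) (A t.2) + 3 * ℓ s(t.1, t.2)) /
      ℓ s(t.1, t.2))).bddAbove
  refine ⟨max 1 ⌈B⌉₊, by simp, fun x y h => ?_⟩
  have hl := hℓ _ (G.mem_edgeSet.2 h)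
  have h1 : q * (4 * min (A x) (A y) + 3 * ℓ s(x, y)) / ℓ s(x, y) ≤ B := hB ⟨(x, y), rfl⟩
  have h2 : B ≤ ((max 1 ⌈B⌉₊ : ℕ) : ℝ) :=
    (Nat.le_ceil B).trans (by exact_mod_cast le_max_right _ _)
  have h3 : (0 : ℝ) < ((max 1 ⌈B⌉₊ : ℕ) : ℝ) := by
    have : 0 < max 1 ⌈B⌉₊ := by simp
    exact_mod_cast this
  rw [div_le_iff₀ hl] at h1
  have h4 : q * (4 * min (A x) (A y) + 3 * ℓ s(x, y)) ≤ ((max 1 ⌈B⌉₊ : ℕ) : ℝ) * ℓ s(x, y) :=
    h1.trans (mul_le_mul_of_nonneg_right h2 hl.le)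
  have h5 : q * (1 / ((max 1 ⌈B⌉₊ : ℕ) : ℝ)) * (4 * min (A x) (A y) + 3 * ℓ s(x, y)) =
      (((max 1 ⌈B⌉₊ : ℕ) : ℝ))⁻¹ * (q * (4 * min (A x) (A y) + 3 * ℓ s(x, y))) := by ring
  rw [h5, inv_mul_le_iff₀ h3]
  exact h4

/-- random retractions of plane graphs -/
theorem retr (h6 : RowKPR) {V : Type} [Finite V] {G : SimpleGraph V} {ℓ : Sym2 V → ℝ}
    (hc : G.Connected) (hpl : ∃ σ : Equiv.Perm G.Dart, PlaneMap G σ)
    (hℓ : ∀ e ∈ G.edgeSet, 0 < ℓ e) {X : Set V} {ν : V → V} (hν : Near G ℓ X ν) :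
    ∃ (ι : Type) (_ : Fintype ι) (w : ι → ℝ) (π : ι → V → V), (∀ i, 0 ≤ w i) ∧ ∑ i, w i = 1 ∧
      (∀ i v, π i v ∈ X) ∧ (∀ i, ∀ v ∈ X, π i v = v) ∧
      (∀ i v, pathDist G ℓ v (π i v) ≤ 2 * pathDist G ℓ v (ν v)) ∧
      ∀ u v, G.Adj u v → ∑ i, w i * pathDist G ℓ (π i u) (π i v) ≤ 1600 * ℓ s(u, v) := by
  obtain ⟨N, hN0, hN⟩ := exists_shifts hℓ (fun v => pathDist G ℓ v (ν v)) 3
  obtain ⟨c, hc1, hc2⟩ := h6 V G (qh ℓ fun v => pathDist G ℓ v (ν v)) hc hpl (qh_pos hℓ) (1 / 130)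
    N (by norm_num) hN0
  haveI : Nonempty (Fin N) := ⟨⟨0, hN0⟩⟩
  have hcard : (Fintype.card (Fin N × Fin N × Fin N) : ℝ) = (N : ℝ) ^ 3 := by
    simp only [Fintype.card_prod, Fintype.card_fin]
    push_cast
    ring
  obtain ⟨ι, _, w, π, h1, h2, h3, h4, h5, h7⟩ := retr_gen hc hℓ hν c (K := 390) (ε := 3 * (1 / N))
    (by norm_num) (fun ω u v h => (hc1 ω u v h).trans (by norm_num))
    (fun u v h => by
      refine (hc2 u v h).trans (le_of_eq ?_)
      rw [hcard]
      ring) hN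
  refine ⟨ι, inferInstance, w, π, h1, h2, h3, h4, h5, fun u v huv => (h7 u v huv).trans ?_⟩
  have := hℓ _ (G.mem_edgeSet.2 huv)
  linarith

/-- (R7) -/
theorem rowRetr (h6 : RowKPR) : RowRetr := by
  intro V _ G ℓ hc hpl hℓ X ν hν
  obtain ⟨ι, _, w, π, h1, h2, h3, -, h5, h7⟩ := retr h6 hc hpl hℓ hν
  have hd := pathDist_isMet hc hℓ
  refine ⟨ι, inferInstance, w, π, h1, h2, h3, fun u v huv => (h7 u v huv).trans ?_,
    fun i v => (h5 i v).trans ?_⟩
  · have := hℓ _ (G.mem_edgeSet.2 huv)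
    linarith
  · have := hd.nonneg v (ν v)
    linarith

end Vale.Agent.P235.H899Q
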