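import Vale.Agent.P235.R2.H899.Qh
import Vale.Agent.P235.R2.H341.KrSpec

/-!
# Random retractions of graphs without a `K_r` minor (helper899)
-/

set_option autoImplicit false

open SimpleGraph

namespace Vale.Agent.P235.H899Q

open Vale.Agent.P235 Vale.Agent.P235.Kr

/-- random retractions of graphs without a `K_r` minor: the identity on `X`, displacement at most
`2 d(v, X)` -/
theorem retrK (h3 : RowK3) {V : Type} [Finite V] {G : SimpleGraph V} {ℓ : Sym2 V → ℝ} {r : ℕ}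
    (hc : G.Connected) (hr : NoK r G) (hℓ : ∀ e ∈ G.edgeSet, 0 < ℓ e) {X : Set V} {ν : V → V}
    (hν : Near G ℓ X ν) :
    ∃ (ι : Type) (_ : Fintype ι) (w : ι → ℝ) (π : ι → V → V), (∀ i, 0 ≤ w i) ∧ ∑ i, w i = 1 ∧
      (∀ i v, π i v ∈ X) ∧ (∀ i, ∀ v ∈ X, π i v = v) ∧
      (∀ i v, pathDist G ℓ v (π i v) ≤ 2 * pathDist G ℓ v (ν v)) ∧
      ∀ u v, G.Adj u v → ∑ i, w i * pathDist G ℓ (π i u) (π i v) ≤
        (80 * ((r : ℝ) + 2) ^ 3 + 4) * ℓ s(u, v) := by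
  have hq : (2 : ℝ) ≤ (r : ℝ) + 2 := by
    have : (0 : ℝ) ≤ r := Nat.cast_nonneg r
    linarith
  set q : ℝ := (r : ℝ) + 2 with hqdef
  have hq0 : 0 < q := by linarith
  obtain ⟨N, hN0, hN⟩ := exists_shifts hℓ (fun v => pathDist G ℓ v (ν v)) q
  obtain ⟨c, hc1, hc2⟩ := h3 V G (qh ℓ fun v => pathDist G ℓ v (ν v)) r hc hr (qh_pos hℓ)
    (1 / (20 * q ^ 2)) N (by positivity) hN0
  simp only [← hqdef] at hc1 hc2
  haveI : Nonempty (Fin N) := ⟨⟨0, hN0⟩⟩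
  have hcard : (Fintype.card (Fin (r + 2) → Fin N) : ℝ) = (N : ℝ) ^ (r + 2) := by
    simp only [Fintype.card_pi, Fintype.card_fin, Finset.prod_const, Finset.card_univ]
    push_cast
    ring
  obtain ⟨ι, _, w, π, h1, h2, h3, h4, h5, h7⟩ := retr_gen hc hℓ hν c (K := 20 * q ^ 3)
    (ε := q * (1 / N)) (by nlinarith [pow_pos hq0 2])
    (fun ω u v h => (hc1 ω u v h).trans (le_of_eq (by field_simp; norm_num)))
    (fun u v h => by
      refine (hc2 u v h).trans (le_of_eq ?_)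
      rw [hcard]
      field_simp) hN
  refine ⟨ι, inferInstance, w, π, h1, h2, h3, h4, h5, fun u v huv => (h7 u v huv).trans
    (le_of_eq (by ring))⟩

/-- (K4) -/
theorem rowK4 (h3 : RowK3) : RowK4 := by
  intro V _ G ℓ r hc hr hℓ X ν hν
  obtain ⟨ι, _, w, π, h1, h2, h3, -, h5, h7⟩ := retrK h3 hc hr hℓ hν
  have hd := pathDist_isMet hc hℓ
  have hq : (2 : ℝ) ≤ (r : ℝ) + 2 := by
    have : (0 : ℝ) ≤ r := Nat.cast_nonneg r
    linarith
  refine ⟨ι, inferInstance, w, π, h1, h2, h3, fun u v huv => (h7 u v huv).trans ?_,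
    fun i v => (h5 i v).trans ?_⟩
  · refine mul_le_mul_of_nonneg_right ?_ (hℓ _ (G.mem_edgeSet.2 huv)).le
    have : (2 : ℝ) ^ 3 ≤ ((r : ℝ) + 2) ^ 3 := by gcongr
    linarith
  · have := hd.nonneg v (ν v)
    linarith

end Vale.Agent.P235.H899Q
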