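/-
P235-M, rounds which delete tight sets (helper899): finite uniform laws and random rounding.
-/
import Vale.Agent.P235.MathlibUsed

namespace Vale.Agent.P235.R2.H899

open Finset

/-- finitely many thresholds in `[0, 1]` with weights `w`, such that a random threshold is at most
`a` with probability `a`, for every `a` in `A` -/
structure Law (A : Finset ℝ) (w : ℝ → ℝ) : Prop where
  nonneg : ∀ a, 0 ≤ w a
  le_one : ∀ a ∈ A, a ≤ 1
  sum : ∀ a ∈ A, ∑ b ∈ A.filter (· ≤ a), w b = a
  one : (1 : ℝ) ∈ A

theorem exists_weight (A : Finset ℝ) (hA : ∀ a ∈ A, 0 ≤ a) :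
    ∃ w : ℝ → ℝ, (∀ a, 0 ≤ w a) ∧ ∀ a ∈ A, ∑ b ∈ A.filter (· ≤ a), w b = a := by
  classical
  induction A using Finset.induction_on_max with
  | empty => exact ⟨fun _ => 0, fun _ => le_rfl, by simp⟩
  | insert m A hm ih =>
    obtain ⟨w, hw, hs⟩ := ih (fun a ha => hA a (mem_insert_of_mem ha))
    have hmA : m ∉ A := fun h => lt_irrefl _ (hm m h)
    have htot : ∑ b ∈ A, w b ≤ m := by
      rcases A.eq_empty_or_nonempty with h | h
      · subst h
        simpa using hA m (by simp)
      · have h1 := hs (A.max' h) (A.max'_mem h)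
        rw [Finset.filter_true_of_mem (fun b hb => A.le_max' b hb)] at h1
        rw [h1]
        exact (hm _ (A.max'_mem h)).le
    have hne : ∀ b ∈ A, (if b = m then m - ∑ b ∈ A, w b else w b) = w b := fun b hb =>
      if_neg (hm b hb).ne
    refine ⟨fun a => if a = m then m - ∑ b ∈ A, w b else w a, fun a => ?_, fun a ha => ?_⟩
    · by_cases h : a = m
      · simp only [h, if_true]
        linarith
      · simp only [h, if_false]
        exact hw a
    · rcases mem_insert.1 ha with h | h
      · subst h
        rw [Finset.filter_true_of_mem (fun b hb => ?_), sum_insert hmA, Finset.sum_congr rfl hne]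
        · simp
        · rcases mem_insert.1 hb with h | h
          · exact h.le
          · exact (hm b h).le
      · have h1 : (insert m A).filter (· ≤ a) = A.filter (· ≤ a) := by
          rw [Finset.filter_insert, if_neg (not_le.2 (hm a h))]
        rw [h1, Finset.sum_congr rfl fun b hb => hne b (mem_filter.1 hb).1]
        exact hs a h

theorem exists_law (T : Finset ℝ) (hT : ∀ t ∈ T, 0 ≤ t ∧ t ≤ 1) :
    ∃ (A : Finset ℝ) (w : ℝ → ℝ), T ⊆ A ∧ Law A w := by
  classical
  obtain ⟨w, hw, hs⟩ := exists_weight (insert 1 T) (by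
    intro a ha
    rcases mem_insert.1 ha with h | h
    · rw [h]; exact zero_le_one
    · exact (hT a h).1)
  refine ⟨insert 1 T, w, Finset.subset_insert _ _, hw, ?_, hs, mem_insert_self _ _⟩
  intro a ha
  rcases mem_insert.1 ha with h | h
  · exact h.le
  · exact (hT a h).2

namespace Law

variable {A : Finset ℝ} {w : ℝ → ℝ}

theorem total (hw : Law A w) : ∑ a ∈ A, w a = 1 := by
  have h := hw.sum 1 hw.one
  rwa [Finset.filter_true_of_mem (fun b hb => hw.le_one b hb)] at h

theorem two (hw : Law A w) {p : ℝ} (hp : p ∈ A) (x y : ℝ) :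
    ∑ a ∈ A, w a * (if a ≤ p then x else y) = p * x + (1 - p) * y := by
  have h1 := hw.sum p hp
  have h2 := hw.total
  have h3 : ∀ a ∈ A, w a * (if a ≤ p then x else y) =
      w a * y + (if a ≤ p then w a else 0) * (x - y) := by
    intro a _
    by_cases h : a ≤ p
    · simp only [h, if_true]; ring
    · simp only [h, if_false]; ring
  rw [Finset.sum_congr rfl h3, Finset.sum_add_distrib, ← Finset.sum_mul, ← Finset.sum_mul, h2,
    ← Finset.sum_filter, h1]
  ring

/-- the probability that exactly one of two thresholds is exceeded -/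
theorem sym (hw : Law A w) {p q : ℝ} (hp : p ∈ A) (hq : q ∈ A) :
    ∑ a ∈ A, w a * |(if a ≤ p then (1 : ℝ) else 0) - (if a ≤ q then 1 else 0)| = |p - q| := by
  wlog h : q ≤ p with H
  · rw [abs_sub_comm p q, ← H hw hq hp (le_of_not_ge h)]
    exact Finset.sum_congr rfl fun a _ => by rw [abs_sub_comm]
  have h1 : ∀ a ∈ A, w a * |(if a ≤ p then (1 : ℝ) else 0) - (if a ≤ q then 1 else 0)| =
      w a * (if a ≤ p then 1 else 0) - w a * (if a ≤ q then 1 else 0) := by
    intro a _
    have : (if a ≤ q then (1 : ℝ) else 0) ≤ (if a ≤ p then (1 : ℝ) else 0) := by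
      by_cases h1 : a ≤ q
      · rw [if_pos h1, if_pos (h1.trans h)]
      · rw [if_neg h1]
        split_ifs <;> norm_num
    rw [abs_of_nonneg (by linarith)]
    ring
  rw [Finset.sum_congr rfl h1, Finset.sum_sub_distrib, hw.two hp, hw.two hq,
    abs_of_nonneg (by linarith)]
  ring

end Law

/-- random rounding to the points of `S` -/
structure Rounding (S X T : Finset ℝ) (r : ℝ → ℝ → ℝ) (e : ℝ → ℝ) : Prop where
  range : ∀ t ∈ T, 0 ≤ t ∧ t ≤ 1
  mem : ∀ τ x, r τ x ∈ S
  fix : ∀ τ ≤ 1, ∀ s ∈ S, r τ s = s
  mono : ∀ τ ≤ 1, ∀ x y, x ≤ y → r τ x ≤ r τ y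
  fixE : ∀ s ∈ S, e s = s
  lip : ∀ x y, x ≤ y → e y - e x ≤ y - x
  mean : ∀ (A : Finset ℝ) (w : ℝ → ℝ), Law A w → T ⊆ A → ∀ x ∈ X, ∑ τ ∈ A, w τ * r τ x = e x

theorem exists_rounding (X S : Finset ℝ) (hS : S.Nonempty) :
    ∃ T r e, Rounding S X T r e := by
  classical
  induction S using Finset.induction_on_max with
  | empty => exact absurd hS (by simp)
  | insert m S hm ih =>
    rcases S.eq_empty_or_nonempty with h | hne
    · subst h
      refine ⟨∅, fun _ _ => m, fun _ => m, by simp, by simp, by simp, by simp, by simp,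
        fun x y h => by simpa using h, ?_⟩
      intro A w hw _ x _
      rw [← Finset.sum_mul, hw.total, one_mul]
    · obtain ⟨T, r, e, h⟩ := ih hne
      obtain ⟨M, hM⟩ : ∃ M, M = S.max' hne := ⟨_, rfl⟩
      have hMS : M ∈ S := hM ▸ S.max'_mem hne
      have hle : ∀ s ∈ S, s ≤ M := fun s hs => hM ▸ S.le_max' s hs
      have hMm : M < m := hm M hMS
      have hMm0 : 0 < m - M := by linarith
      let fr : ℝ → ℝ := fun x => min 1 ((x - M) / (m - M))
      have hfr1 : ∀ x, fr x ≤ 1 := fun x => min_le_left _ _
      have hfr0 : ∀ x, M < x → 0 ≤ fr x := fun x hx =>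
        le_min zero_le_one (div_nonneg (by linarith) hMm0.le)
      have hfrm : ∀ x y, x ≤ y → fr x ≤ fr y := fun x y hxy =>
        min_le_min le_rfl (div_le_div_of_nonneg_right (by linarith) hMm0.le)
      have hfre : ∀ x, M + (m - M) * fr x = min m x := by
        intro x
        show M + (m - M) * min 1 ((x - M) / (m - M)) = min m x
        rw [mul_min_of_nonneg _ _ hMm0.le, mul_one, mul_div_cancel₀ _ hMm0.ne', ← min_add_add_left]
        congr 1 <;> ring
      refine ⟨T ∪ (X.filter (M < ·)).image fr,
        fun τ x => if x ≤ M then r τ x else if τ ≤ fr x then m else M,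
        fun x => if x ≤ M then e x else min m x, ?_, ?_, ?_, ?_, ?_, ?_, ?_⟩
      · intro t ht
        rcases mem_union.1 ht with h1 | h1
        · exact h.range t h1
        · obtain ⟨x, hx, rfl⟩ := mem_image.1 h1
          exact ⟨hfr0 x (mem_filter.1 hx).2, hfr1 x⟩
      · intro τ x
        split_ifs
        · exact mem_insert_of_mem (h.mem τ x)
        · exact mem_insert_self _ _
        · exact mem_insert_of_mem hMS
      · intro τ hτ s hs
        rcases mem_insert.1 hs with h1 | h1
        · subst h1
          rw [if_neg (not_le.2 hMm), if_pos]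
          have : fr s = 1 := by
            show min 1 ((s - M) / (s - M)) = 1
            rw [div_self hMm0.ne', min_self]
          rw [this]; exact hτ
        · rw [if_pos (hle s h1)]
          exact h.fix τ hτ s h1
      · intro τ hτ x y hxy
        by_cases hy : y ≤ M
        · rw [if_pos hy, if_pos (hxy.trans hy)]
          exact h.mono τ hτ x y hxy
        · rw [if_neg hy]
          by_cases hx : x ≤ M
          · rw [if_pos hx]
            refine (hle _ (h.mem τ x)).trans ?_
            split_ifs
            · exact hMm.le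
            · exact le_rfl
          · rw [if_neg hx]
            by_cases h1 : τ ≤ fr x
            · rw [if_pos h1, if_pos (h1.trans (hfrm x y hxy))]
            · rw [if_neg h1]
              split_ifs
              · exact hMm.le
              · exact le_rfl
      · intro s hs
        rcases mem_insert.1 hs with h1 | h1
        · subst h1
          rw [if_neg (not_le.2 hMm), min_self]
        · rw [if_pos (hle s h1)]
          exact h.fixE s h1
      · intro x y hxy
        by_cases hy : y ≤ M
        · rw [if_pos hy, if_pos (hxy.trans hy)]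
          exact h.lip x y hxy
        · rw [if_neg hy]
          by_cases hx : x ≤ M
          · rw [if_pos hx]
            have h1 := h.lip x M hx
            rw [h.fixE M hMS] at h1
            have h2 := min_le_right m y
            linarith
          · rw [if_neg hx]
            rcases le_total m x with h1 | h1
            · rw [min_eq_left h1, min_eq_left (h1.trans hxy)]
              linarith
            · rw [min_eq_right h1]
              have h2 := min_le_right m y
              linarith
      · intro A w hw hTA x hx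
        by_cases hxM : x ≤ M
        · simp only [if_pos hxM]
          exact h.mean A w hw (subset_union_left.trans hTA) x hx
        · simp only [if_neg hxM]
          have hA : fr x ∈ A := hTA (mem_union_right _ (mem_image_of_mem _
            (mem_filter.2 ⟨hx, not_le.1 hxM⟩)))
          rw [hw.two hA, ← hfre x]
          ring

namespace Rounding

variable {S X T : Finset ℝ} {r : ℝ → ℝ → ℝ} {e : ℝ → ℝ} {A : Finset ℝ} {w : ℝ → ℝ}

/-- the expected distance does not grow -/
theorem dist (h : Rounding S X T r e) (hw : Law A w) (hT : T ⊆ A) {x y : ℝ} (hx : x ∈ X)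
    (hy : y ∈ X) : ∑ τ ∈ A, w τ * |r τ x - r τ y| ≤ |x - y| := by
  wlog hxy : y ≤ x with H
  · rw [abs_sub_comm x y]
    refine le_trans (le_of_eq ?_) (H h hw hT hy hx (le_of_not_ge hxy))
    exact Finset.sum_congr rfl fun a _ => by rw [abs_sub_comm]
  have h1 : ∀ τ ∈ A, w τ * |r τ x - r τ y| = w τ * r τ x - w τ * r τ y := by
    intro τ hτ
    have := h.mono τ (hw.le_one τ hτ) y x hxy
    rw [abs_of_nonneg (by linarith)]
    ring
  rw [Finset.sum_congr rfl h1, Finset.sum_sub_distrib, h.mean A w hw hT x hx,
    h.mean A w hw hT y hy, abs_of_nonneg (by linarith)]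
  exact h.lip y x hxy

/-- the expected distance to a point of `S` -/
theorem distS (h : Rounding S X T r e) (hw : Law A w) (hT : T ⊆ A) {x s : ℝ} (hx : x ∈ X)
    (hs : s ∈ S) (hsX : s ∈ X) : ∑ τ ∈ A, w τ * |r τ x - s| ≤ |x - s| := by
  refine le_trans (le_of_eq ?_) (h.dist hw hT hx hsX)
  exact Finset.sum_congr rfl fun τ hτ => by rw [h.fix τ (hw.le_one τ hτ) s hs]

end Rounding

end Vale.Agent.P235.R2.H899
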