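/-
P235-M, rounds which delete tight sets (helper899): random retraction onto two lanes.
-/
import Vale.Agent.P235.R2.H899.Rt1
import Vale.Agent.P235.R2.H341.W2

namespace Vale.Agent.P235.R2.H899

open Finset Vale.Agent.P235

/-- the probability of the second of two lanes at distances `x` and `y` -/
noncomputable def pr (x y : ℝ) : ℝ := max 0 (min 1 (2 * (x / (x + y)) - 1 / 2))

theorem pr_nonneg (x y : ℝ) : 0 ≤ pr x y := le_max_left _ _

theorem pr_le_one (x y : ℝ) : pr x y ≤ 1 := max_le zero_le_one (min_le_left _ _)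

theorem pr_near {x y : ℝ} (hx : 0 < x) (hy : 0 < y) :
    pr x y * y + (1 - pr x y) * x ≤ 3 / 2 * x ∧ pr x y * y + (1 - pr x y) * x ≤ 3 / 2 * y := by
  have hS : 0 < x + y := by linarith
  obtain ⟨l, hl⟩ : ∃ l, l = x / (x + y) := ⟨_, rfl⟩
  have hlS : l * (x + y) = x := by rw [hl, div_mul_cancel₀ _ hS.ne']
  have e : pr x y = max 0 (min 1 (2 * l - 1 / 2)) := by rw [hl]; rfl
  rw [e]
  rcases le_total (2 * l - 1 / 2) 0 with h | h
  · rw [max_eq_left ((min_le_right _ _).trans h)]
    have h1 : (2 * l - 1 / 2) * (x + y) ≤ 0 := mul_nonpos_of_nonpos_of_nonneg h hS.le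
    constructor <;> nlinarith
  · rcases le_total 1 (2 * l - 1 / 2) with h' | h'
    · rw [min_eq_left h', max_eq_right zero_le_one]
      have h1 : 1 * (x + y) ≤ (2 * l - 1 / 2) * (x + y) := mul_le_mul_of_nonneg_right h' hS.le
      constructor <;> nlinarith
    · rw [min_eq_right h', max_eq_right h]
      have key : ∀ z, 0 ≤ (x + y) * (z - ((2 * l - 1 / 2) * y + (1 - (2 * l - 1 / 2)) * x)) →
          (2 * l - 1 / 2) * y + (1 - (2 * l - 1 / 2)) * x ≤ z := by
        intro z hz
        have := nonneg_of_mul_nonneg_right hz hS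
        linarith
      have e2 : (x + y) * ((2 * l - 1 / 2) * y + (1 - (2 * l - 1 / 2)) * x) =
          (x + y) * x + (2 * x - (x + y) / 2) * (y - x) := by
        have : (x + y) * ((2 * l - 1 / 2) * y + (1 - (2 * l - 1 / 2)) * x) =
          (x + y) * x + (2 * (l * (x + y)) - (x + y) / 2) * (y - x) := by ring
        rw [this, hlS]
      constructor
      · apply key
        rw [mul_sub, e2]
        nlinarith [sq_nonneg (y - 3 / 2 * x), sq_nonneg x]
      · apply key
        rw [mul_sub, e2]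
        nlinarith [sq_nonneg (x - 3 / 2 * y), sq_nonneg y]

theorem clamp_lip (a b : ℝ) : |max 0 (min 1 a) - max 0 (min 1 b)| ≤ |a - b| := by
  have h1 := abs_max_sub_max_le_abs (min 1 a) (min 1 b) 0
  have h2 := abs_min_sub_min_le_max 1 a 1 b
  rw [sub_self, abs_zero, max_eq_right (abs_nonneg _)] at h2
  rw [max_comm 0, max_comm 0]
  exact h1.trans h2

theorem pr_lip {x y x' y' l : ℝ} (hx : 0 < x) (hy : 0 < y) (hx' : 0 < x') (hy' : 0 < y')
    (h1 : |x' - x| ≤ l) (h2 : |y' - y| ≤ l) : |pr x' y' - pr x y| * (x + y) ≤ 2 * l := by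
  have hS : 0 < x + y := by linarith
  have hS' : 0 < x' + y' := by linarith
  obtain ⟨a, ha⟩ : ∃ a, a = x / (x + y) := ⟨_, rfl⟩
  obtain ⟨a', ha'⟩ : ∃ a', a' = x' / (x' + y') := ⟨_, rfl⟩
  have haS : a * (x + y) = x := by rw [ha, div_mul_cancel₀ _ hS.ne']
  have haS' : a' * (x' + y') = x' := by rw [ha', div_mul_cancel₀ _ hS'.ne']
  have h0 : 0 ≤ a' := by rw [ha']; positivity
  have h01 : a' ≤ 1 := by
    rw [ha', div_le_one hS']
    linarith
  have hc : |pr x' y' - pr x y| ≤ 2 * |a' - a| := by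
    have := clamp_lip (2 * (x' / (x' + y')) - 1 / 2) (2 * (x / (x + y)) - 1 / 2)
    refine this.trans (le_of_eq ?_)
    rw [← ha, ← ha']
    have : 2 * a' - 1 / 2 - (2 * a - 1 / 2) = 2 * (a' - a) := by ring
    rw [this, abs_mul, abs_of_pos (by norm_num : (0 : ℝ) < 2)]
  have hd : |a' - a| * (x + y) ≤ l := by
    rw [← abs_of_pos hS, ← abs_mul]
    have e : (a' - a) * (x + y) = (1 - a') * (x' - x) + -(a' * (y' - y)) := by
      have : (a' - a) * (x + y) = a' * (x' + y') - a * (x + y) - a' * (x' - x) - a' * (y' - y) := by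
        ring
      rw [this, haS, haS']
      ring
    rw [e]
    refine (abs_add_le _ _).trans ?_
    rw [abs_neg, abs_mul, abs_mul, abs_of_nonneg h0, abs_of_nonneg (by linarith : 0 ≤ 1 - a')]
    have h3 := mul_le_mul_of_nonneg_left h1 (by linarith : 0 ≤ 1 - a')
    have h4 := mul_le_mul_of_nonneg_left h2 h0
    linarith
  calc |pr x' y' - pr x y| * (x + y) ≤ 2 * |a' - a| * (x + y) :=
        mul_le_mul_of_nonneg_right hc hS.le
    _ = 2 * (|a' - a| * (x + y)) := by ring
    _ ≤ 2 * l := by linarith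

/-- random retraction onto one lane -/
theorem exists_lane {V : Type} [Finite V] {d : V → V → ℝ} {h : V → ℝ}
    (hh : ∀ u v, |h u - h v| ≤ d u v) (X : Set V) :
    ∃ (T : Finset ℝ) (π : ℝ → V → V), (∀ t ∈ T, 0 ≤ t ∧ t ≤ 1) ∧
      (X.Nonempty → ∀ τ v, π τ v ∈ X) ∧
      (X.Nonempty → (∀ a ∈ X, ∀ b ∈ X, d a b ≤ |h a - h b|) →
        ∀ (A : Finset ℝ) (w : ℝ → ℝ), Law A w → T ⊆ A →
          (∀ u v, ∑ τ ∈ A, w τ * d (π τ u) (π τ v) ≤ |h u - h v|) ∧
          ∀ v, ∀ a ∈ X, ∑ τ ∈ A, w τ * d (π τ v) a ≤ d v a) := by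
  classical
  have := Fintype.ofFinite V
  by_cases hX : X.Nonempty
  · obtain ⟨S, hS⟩ : ∃ S, S = (Finset.univ.filter (· ∈ X)).image h := ⟨_, rfl⟩
    have hmem : ∀ s, s ∈ S → ∃ a ∈ X, h a = s := by
      intro s hs
      rw [hS] at hs
      obtain ⟨a, ha, rfl⟩ := mem_image.1 hs
      exact ⟨a, (mem_filter.1 ha).2, rfl⟩
    have hmem' : ∀ a ∈ X, h a ∈ S := by
      intro a ha
      rw [hS]
      exact mem_image_of_mem _ (mem_filter.2 ⟨mem_univ _, ha⟩)
    have hSne : S.Nonempty := by
      obtain ⟨a, ha⟩ := hX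
      exact ⟨h a, hmem' a ha⟩
    obtain ⟨T, r, e, hr⟩ := exists_rounding (Finset.univ.image h) S hSne
    have hin : ∀ v, h v ∈ Finset.univ.image h := fun v => mem_image_of_mem _ (mem_univ _)
    choose pt hpt1 hpt2 using fun (τ : ℝ) (v : V) => hmem (r τ (h v)) (hr.mem τ (h v))
    refine ⟨T, pt, hr.range, fun _ τ v => hpt1 τ v, fun _ hiso A w hw hT => ⟨?_, ?_⟩⟩
    · intro u v
      refine le_trans (Finset.sum_le_sum fun τ _ => mul_le_mul_of_nonneg_left ?_ (hw.nonneg τ))
        (hr.dist hw hT (hin u) (hin v))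
      have := hiso _ (hpt1 τ u) _ (hpt1 τ v)
      rwa [hpt2, hpt2] at this
    · intro v a ha
      refine le_trans (Finset.sum_le_sum fun τ _ => mul_le_mul_of_nonneg_left ?_ (hw.nonneg τ))
        ((hr.distS hw hT (hin v) (hmem' a ha) (hin a)).trans (hh v a))
      have := hiso _ (hpt1 τ v) _ ha
      rwa [hpt2] at this
  · exact ⟨∅, fun _ v => v, by simp, fun h => absurd h hX, fun h => absurd h hX⟩

/-- two lanes of `P` for every vertex outside `P`, which carry all attachments of its component -/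
structure Lanes2 {V : Type} (G : SimpleGraph V) (ℓ : Sym2 V → ℝ) (h : V → ℝ) (P : Set V)
    (N : V → Bool → Set V) : Prop where
  sub : ∀ v ∉ P, ∀ i, N v i ⊆ P
  ne : ∀ v ∉ P, ∀ i, (N v i).Nonempty
  iso : ∀ v ∉ P, ∀ i, ∀ a ∈ N v i, ∀ b ∈ N v i, pathDist G ℓ a b ≤ |h a - h b|
  cong : ∀ u v, u ∉ P → v ∉ P → G.Adj u v → N u = N v
  att : ∀ v ∉ P, ∀ a ∈ attach G P v, ∃ i, a ∈ N v i

/-- **random retraction** onto a set `P`, every component of whose complement is attached to two
lanes of `P`: a law on maps `V → P` under which the expected length of the image of an edge is at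
most `8` times its length, and the expected distance of `v` and its image at most `3 d(v, P)` -/
theorem exists_retraction {V : Type} [Finite V] {G : SimpleGraph V} {ℓ : Sym2 V → ℝ}
    (hc : G.Connected) (hℓ : ∀ e ∈ G.edgeSet, 0 < ℓ e) {h : V → ℝ}
    (hh : ∀ u v, |h u - h v| ≤ pathDist G ℓ u v) {P : Set V}
    {N : V → Bool → Set V} (hN : Lanes2 G ℓ h P N) :
    ∃ (A : Finset ℝ) (w : ℝ → ℝ) (π : ℝ → ℝ → V → V), Law A w ∧ (∀ τ' τ v, π τ' τ v ∈ P) ∧
      (∀ τ' τ, ∀ v ∈ P, π τ' τ v = v) ∧
      (∀ u v, G.Adj u v →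
        ∑ τ' ∈ A, w τ' * ∑ τ ∈ A, w τ * pathDist G ℓ (π τ' τ u) (π τ' τ v) ≤ 8 * ℓ s(u, v)) ∧
      ∀ ν, Near G ℓ P ν → ∀ v,
        ∑ τ' ∈ A, w τ' * ∑ τ ∈ A, w τ * pathDist G ℓ (π τ' τ v) v ≤
          3 * pathDist G ℓ v (ν v) := by
  classical
  have := Fintype.ofFinite V
  have hd := pathDist_isMet hc hℓ
  choose T π hT hπ1 hπ2 using fun X : Set V => exists_lane hh X
  have hnr : ∀ X : Set V, ∃ n : V → V, X.Nonempty → Near G ℓ X n := by
    intro X
    by_cases hX : X.Nonempty
    · obtain ⟨n, hn⟩ := exists_near (X := X) hc hℓ hX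
      exact ⟨n, fun _ => hn⟩
    · exact ⟨id, fun h => absurd h hX⟩
  choose nr hnr using hnr
  -- the distances to the two lanes
  let D : V → Bool → ℝ := fun v i => pathDist G ℓ v (nr (N v i) v)
  have hnear : ∀ v ∉ P, ∀ i, Near G ℓ (N v i) (nr (N v i)) := fun v hv i => hnr _ (hN.ne v hv i)
  have hD0 : ∀ v ∉ P, ∀ i, 0 < D v i := by
    intro v hv i
    refine hd.pos _ _ fun h => hv ?_
    have h1 := hN.sub v hv i ((hnear v hv i).mem v)
    rwa [← h] at h1
  have hDle : ∀ v ∉ P, ∀ i, ∀ a ∈ N v i, D v i ≤ pathDist G ℓ v a := fun v hv i a ha =>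
    (hnear v hv i).le v a ha
  have hDlip : ∀ u v, u ∉ P → v ∉ P → G.Adj u v → ∀ i, |D u i - D v i| ≤ ℓ s(u, v) := by
    intro u v hu hv huv i
    have e : N u = N v := hN.cong u v hu hv huv
    have h1 := (hnear v hv i).lip hc hℓ u v
    have h2 := (hnear v hv i).lip hc hℓ v u
    have h3 := pathDist_adj hℓ huv
    have e1 : D u i = pathDist G ℓ u (nr (N v i) u) := by
      show pathDist G ℓ u (nr (N u i) u) = _
      rw [e]
    have e2 : D v i = pathDist G ℓ v (nr (N v i) v) := rfl
    rw [hd.symm v u] at h2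
    rw [abs_le]
    constructor <;> linarith
  let p : V → ℝ := fun v => pr (D v false) (D v true)
  have hp0 : ∀ v, 0 ≤ p v := fun v => pr_nonneg _ _
  have hp1 : ∀ v, p v ≤ 1 := fun v => pr_le_one _ _
  -- the law
  obtain ⟨A, w, hTA, hw⟩ := exists_law
    ((Finset.univ.biUnion fun q : V × Bool => T (N q.1 q.2)) ∪ Finset.univ.image p) (by
      intro t ht
      rcases mem_union.1 ht with h1 | h1
      · obtain ⟨q, _, hq⟩ := mem_biUnion.1 h1
        exact hT _ t hq
      · obtain ⟨v, _, rfl⟩ := mem_image.1 h1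
        exact ⟨hp0 v, hp1 v⟩)
  have hTN : ∀ v i, T (N v i) ⊆ A := fun v i t ht =>
    hTA (mem_union_left _ (mem_biUnion.2 ⟨(v, i), mem_univ _, ht⟩))
  have hpA : ∀ v, p v ∈ A := fun v => hTA (mem_union_right _ (mem_image_of_mem _ (mem_univ v)))
  have hw0 := hw.nonneg
  let R : ℝ → ℝ → V → V := fun τ' τ v =>
    if v ∈ P then v else if τ' ≤ p v then π (N v true) τ v else π (N v false) τ v
  have hRP : ∀ τ' τ, ∀ v ∈ P, R τ' τ v = v := fun τ' τ v hv => if_pos hv
  have hR1 : ∀ τ' τ, ∀ v ∉ P, τ' ≤ p v → R τ' τ v = π (N v true) τ v := by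
    intro τ' τ v hv h1
    show (if v ∈ P then v else if τ' ≤ p v then π (N v true) τ v else π (N v false) τ v) = _
    rw [if_neg hv, if_pos h1]
  have hR2 : ∀ τ' τ, ∀ v ∉ P, ¬ τ' ≤ p v → R τ' τ v = π (N v false) τ v := by
    intro τ' τ v hv h1
    show (if v ∈ P then v else if τ' ≤ p v then π (N v true) τ v else π (N v false) τ v) = _
    rw [if_neg hv, if_neg h1]
  -- expected distance to the image
  have hE1 : ∀ v ∉ P, ∀ i, ∑ τ ∈ A, w τ * pathDist G ℓ (π (N v i) τ v) v ≤ 2 * D v i := by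
    intro v hv i
    have h1 := (hπ2 _ (hN.ne v hv i) (hN.iso v hv i) A w hw (hTN v i)).2 v _
      ((hnear v hv i).mem v)
    have h2 : ∀ τ ∈ A, w τ * pathDist G ℓ (π (N v i) τ v) v ≤
        w τ * pathDist G ℓ (π (N v i) τ v) (nr (N v i) v) + w τ * D v i := by
      intro τ _
      rw [← mul_add]
      refine mul_le_mul_of_nonneg_left ?_ (hw0 τ)
      have := hd.tri (π (N v i) τ v) (nr (N v i) v) v
      rw [hd.symm (nr (N v i) v) v] at this
      exact this
    refine (Finset.sum_le_sum h2).trans ?_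
    rw [Finset.sum_add_distrib, ← Finset.sum_mul, hw.total]
    have : D v i = pathDist G ℓ v (nr (N v i) v) := rfl
    linarith
  have hE2 : ∀ v ∉ P, ∀ i, ∑ τ' ∈ A, w τ' * ∑ τ ∈ A, w τ * pathDist G ℓ (R τ' τ v) v ≤
      3 * D v i := by
    intro v hv i
    have h1 : ∀ τ' ∈ A, w τ' * ∑ τ ∈ A, w τ * pathDist G ℓ (R τ' τ v) v ≤
        w τ' * (if τ' ≤ p v then 2 * D v true else 2 * D v false) := by
      intro τ' _
      refine mul_le_mul_of_nonneg_left ?_ (hw0 τ')
      by_cases h : τ' ≤ p v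
      · rw [if_pos h, Finset.sum_congr rfl fun τ _ => by rw [hR1 τ' τ v hv h]]
        exact hE1 v hv true
      · rw [if_neg h, Finset.sum_congr rfl fun τ _ => by rw [hR2 τ' τ v hv h]]
        exact hE1 v hv false
    refine (Finset.sum_le_sum h1).trans ?_
    rw [hw.two (hpA v)]
    obtain ⟨h2, h3⟩ := pr_near (hD0 v hv false) (hD0 v hv true)
    have h4 : p v = pr (D v false) (D v true) := rfl
    rw [← h4] at h2 h3
    cases i <;> linarith
  refine ⟨A, w, R, hw, ?_, hRP, ?_, ?_⟩
  · intro τ' τ v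
    by_cases hv : v ∈ P
    · rw [hRP _ _ v hv]; exact hv
    · by_cases h : τ' ≤ p v
      · rw [hR1 τ' τ v hv h]
        exact hN.sub v hv true (hπ1 _ (hN.ne v hv true) τ v)
      · rw [hR2 τ' τ v hv h]
        exact hN.sub v hv false (hπ1 _ (hN.ne v hv false) τ v)
  · -- edges
    have hone : ∀ u v, u ∉ P → v ∈ P → G.Adj u v →
        ∑ τ' ∈ A, w τ' * ∑ τ ∈ A, w τ * pathDist G ℓ (R τ' τ u) (R τ' τ v) ≤ 4 * ℓ s(u, v) := by
      intro u v hu hv huv
      obtain ⟨i, hi⟩ := hN.att u hu v (mem_attach_of_adj hu hv huv)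
      have h1 := hE2 u hu i
      have h2 := hDle u hu i v hi
      have h3 := pathDist_adj hℓ huv
      have h4 : ∀ τ' ∈ A, w τ' * ∑ τ ∈ A, w τ * pathDist G ℓ (R τ' τ u) (R τ' τ v) ≤
          w τ' * ∑ τ ∈ A, w τ * pathDist G ℓ (R τ' τ u) u + w τ' * ℓ s(u, v) := by
        intro τ' _
        rw [← mul_add]
        refine mul_le_mul_of_nonneg_left ?_ (hw0 τ')
        have h5 : ∀ τ ∈ A, w τ * pathDist G ℓ (R τ' τ u) (R τ' τ v) ≤
            w τ * pathDist G ℓ (R τ' τ u) u + w τ * ℓ s(u, v) := by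
          intro τ _
          rw [← mul_add, hRP τ' τ v hv]
          refine mul_le_mul_of_nonneg_left ?_ (hw0 τ)
          have := hd.tri (R τ' τ u) u v
          linarith
        refine (Finset.sum_le_sum h5).trans ?_
        rw [Finset.sum_add_distrib, ← Finset.sum_mul, hw.total, one_mul]
      refine (Finset.sum_le_sum h4).trans ?_
      rw [Finset.sum_add_distrib, ← Finset.sum_mul, hw.total, one_mul]
      linarith
    intro u v huv
    have hl0 : 0 < ℓ s(u, v) := hℓ _ huv
    have h3 := pathDist_adj hℓ huv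
    by_cases hu : u ∈ P
    · by_cases hv : v ∈ P
      · have h1 : ∀ τ' ∈ A, w τ' * ∑ τ ∈ A, w τ * pathDist G ℓ (R τ' τ u) (R τ' τ v) ≤
            w τ' * ℓ s(u, v) := by
          intro τ' _
          refine mul_le_mul_of_nonneg_left ?_ (hw0 τ')
          have h5 : ∀ τ ∈ A, w τ * pathDist G ℓ (R τ' τ u) (R τ' τ v) ≤ w τ * ℓ s(u, v) := by
            intro τ _
            rw [hRP τ' τ v hv, hRP τ' τ u hu]
            exact mul_le_mul_of_nonneg_left h3 (hw0 τ)
          refine (Finset.sum_le_sum h5).trans ?_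
          rw [← Finset.sum_mul, hw.total, one_mul]
        refine (Finset.sum_le_sum h1).trans ?_
        rw [← Finset.sum_mul, hw.total, one_mul]
        linarith
      · have h1 := hone v u hv hu huv.symm
        rw [Sym2.eq_swap] at h1
        refine le_trans (le_of_eq ?_) (h1.trans (by linarith))
        refine Finset.sum_congr rfl fun τ' _ => ?_
        congr 1
        exact Finset.sum_congr rfl fun τ _ => by rw [hd.symm]
    · by_cases hv : v ∈ P
      · exact (hone u v hu hv huv).trans (by linarith)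
      · -- both outside
        have eN : N u = N v := hN.cong u v hu hv huv
        have hhl : |h u - h v| ≤ ℓ s(u, v) := (hh u v).trans h3
        have hsame : ∀ i, ∑ τ ∈ A, w τ * pathDist G ℓ (π (N v i) τ u) (π (N v i) τ v) ≤
            ℓ s(u, v) := fun i =>
          ((hπ2 _ (hN.ne v hv i) (hN.iso v hv i) A w hw (hTN v i)).1 u v).trans hhl
        have hdiff : ∀ i j, i ≠ j →
            ∑ τ ∈ A, w τ * pathDist G ℓ (π (N v i) τ u) (π (N v j) τ v) ≤
              2 * (D v false + D v true) + 3 * ℓ s(u, v) := by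
          intro i j hij
          have h1 := hE1 u hu i
          have h2 := hE1 v hv j
          rw [eN] at h1
          have h4 := (abs_le.1 (hDlip u v hu hv huv i)).2
          have h5 : ∀ τ ∈ A, w τ * pathDist G ℓ (π (N v i) τ u) (π (N v j) τ v) ≤
              w τ * pathDist G ℓ (π (N v i) τ u) u + w τ * ℓ s(u, v) +
                w τ * pathDist G ℓ (π (N v j) τ v) v := by
            intro τ _
            rw [← mul_add, ← mul_add]
            refine mul_le_mul_of_nonneg_left ?_ (hw0 τ)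
            have a1 := hd.tri (π (N v i) τ u) u (π (N v j) τ v)
            have a2 := hd.tri u v (π (N v j) τ v)
            rw [hd.symm v (π (N v j) τ v)] at a2
            linarith
          refine (Finset.sum_le_sum h5).trans ?_
          rw [Finset.sum_add_distrib, Finset.sum_add_distrib, ← Finset.sum_mul, hw.total, one_mul]
          have h6 : D v i + D v j = D v false + D v true := by
            cases i <;> cases j <;> first | exact absurd rfl hij | skip
            · rfl
            · exact add_comm _ _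
          linarith
        have hS : 0 < D v false + D v true := add_pos (hD0 v hv _) (hD0 v hv _)
        have h4 : ∀ τ' ∈ A, w τ' * ∑ τ ∈ A, w τ * pathDist G ℓ (R τ' τ u) (R τ' τ v) ≤
            w τ' * ℓ s(u, v) + w τ' * |(if τ' ≤ p u then (1 : ℝ) else 0) -
              (if τ' ≤ p v then 1 else 0)| * (2 * (D v false + D v true) + 3 * ℓ s(u, v)) := by
          intro τ' _
          rw [mul_assoc, ← mul_add]
          refine mul_le_mul_of_nonneg_left ?_ (hw0 τ')
          by_cases a1 : τ' ≤ p u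
          · by_cases a2 : τ' ≤ p v
            · rw [if_pos a1, if_pos a2, sub_self, abs_zero, zero_mul, add_zero,
                Finset.sum_congr rfl fun τ _ => by rw [hR1 τ' τ u hu a1, hR1 τ' τ v hv a2, eN]]
              exact hsame true
            · rw [if_pos a1, if_neg a2, sub_zero, abs_one, one_mul,
                Finset.sum_congr rfl fun τ _ => by rw [hR1 τ' τ u hu a1, hR2 τ' τ v hv a2, eN]]
              have := hdiff true false (by simp)
              linarith
          · by_cases a2 : τ' ≤ p v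
            · rw [if_neg a1, if_pos a2, zero_sub, abs_neg, abs_one, one_mul,
                Finset.sum_congr rfl fun τ _ => by rw [hR2 τ' τ u hu a1, hR1 τ' τ v hv a2, eN]]
              have := hdiff false true (by simp)
              linarith
            · rw [if_neg a1, if_neg a2, sub_self, abs_zero, zero_mul, add_zero,
                Finset.sum_congr rfl fun τ _ => by rw [hR2 τ' τ u hu a1, hR2 τ' τ v hv a2, eN]]
              exact hsame false
        refine (Finset.sum_le_sum h4).trans ?_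
        rw [Finset.sum_add_distrib, ← Finset.sum_mul, ← Finset.sum_mul, hw.total, one_mul,
          hw.sym (hpA u) (hpA v)]
        have h5 : |p u - p v| * (D v false + D v true) ≤ 2 * ℓ s(u, v) :=
          pr_lip (hD0 v hv false) (hD0 v hv true) (hD0 u hu false) (hD0 u hu true)
            (hDlip u v hu hv huv false) (hDlip u v hu hv huv true)
        have h6 : |p u - p v| ≤ 1 := by
          rw [abs_le]
          constructor <;> linarith [hp0 u, hp0 v, hp1 u, hp1 v]
        have h7 : |p u - p v| * (3 * ℓ s(u, v)) ≤ 1 * (3 * ℓ s(u, v)) :=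
          mul_le_mul_of_nonneg_right h6 (by linarith)
        have h8 : |p u - p v| * (2 * (D v false + D v true) + 3 * ℓ s(u, v)) =
          2 * (|p u - p v| * (D v false + D v true)) + |p u - p v| * (3 * ℓ s(u, v)) := by ring
        rw [h8]
        linarith
  · intro ν hν v
    by_cases hv : v ∈ P
    · have h0 : pathDist G ℓ v (ν v) = 0 := by rw [hν.self v hv, hd.self]
      rw [h0, mul_zero]
      refine le_of_eq (Finset.sum_eq_zero fun τ' _ => ?_)
      rw [Finset.sum_eq_zero fun τ _ => by rw [hRP τ' τ v hv, hd.self, mul_zero], mul_zero]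
    · obtain ⟨i, hi⟩ := hN.att v hv (ν v) (hν.att v hv)
      have h1 := hE2 v hv i
      have h2 := hDle v hv i _ hi
      linarith

end Vale.Agent.P235.R2.H899
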