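/-
P235-M, rounds which delete tight sets (helper899): the separating semimetric.
-/
import Vale.Agent.P235.R2.H899.Rt2
import Vale.Agent.P235.R2.H899.RtDefs

namespace Vale.Agent.P235.R2.H899

open Finset Vale.Agent.P235 Vale.Agent.P235.Red

/-- an `L₁` semimetric on `P` extends to the whole graph: at most the length on every edge, and it
still separates the pairs close to `P` -/
theorem exists_sep {V : Type} [Finite V] {G : SimpleGraph V} {ℓ : Sym2 V → ℝ}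
    (hc : G.Connected) (hℓ : ∀ e ∈ G.edgeSet, 0 < ℓ e) {h : V → ℝ}
    (hh : ∀ u v, |h u - h v| ≤ pathDist G ℓ u v) {P : Set V}
    {N : V → Bool → Set V} (hN : Lanes2 G ℓ h P N) {ρ : P → P → ℝ} (hρ : IsL1 ρ) {K : ℝ}
    (h1 : ∀ a b : P, ρ a b ≤ pathDist G ℓ a b)
    (h2 : ∀ a b : P, pathDist G ℓ a b ≤ K * ρ a b) :
    ∃ F : V → V → ℝ, IsL1 F ∧ (∀ u v, G.Adj u v → F u v ≤ ℓ s(u, v)) ∧
      ∀ ν : V → V, Near G ℓ P ν → ∀ x y δ, 0 < δ → pathDist G ℓ x (ν x) ≤ δ →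
        pathDist G ℓ y (ν y) ≤ 5 / 4 * δ → 8 * δ ≤ pathDist G ℓ x y →
        2 * δ ≤ 13 * K * F x y := by
  classical
  have hd := pathDist_isMet hc hℓ
  obtain ⟨A, w, R, hw, hRP, -, hR1, hR2⟩ := exists_retraction hc hℓ hh hN
  have hw0 := hw.nonneg
  let φ : ℝ → ℝ → V → P := fun τ' τ v => ⟨R τ' τ v, hRP τ' τ v⟩
  let F : V → V → ℝ := fun x y =>
    1 / 8 * ∑ τ' ∈ A, w τ' * ∑ τ ∈ A, w τ * ρ (φ τ' τ x) (φ τ' τ y)
  refine ⟨F, ?_, ?_, ?_⟩
  · exact (IsL1.sum A (fun τ' x y => w τ' * ∑ τ ∈ A, w τ * ρ (φ τ' τ x) (φ τ' τ y)) fun τ' _ =>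
      (IsL1.sum A (fun τ x y => w τ * ρ (φ τ' τ x) (φ τ' τ y)) fun τ _ =>
        (hρ.comap (φ τ' τ)).smul (hw0 τ)).smul (hw0 τ')).smul (by norm_num)
  · intro u v huv
    have h3 := hR1 u v huv
    have h4 : ∑ τ' ∈ A, w τ' * ∑ τ ∈ A, w τ * ρ (φ τ' τ u) (φ τ' τ v) ≤
        ∑ τ' ∈ A, w τ' * ∑ τ ∈ A, w τ * pathDist G ℓ (R τ' τ u) (R τ' τ v) :=
      Finset.sum_le_sum fun τ' _ => mul_le_mul_of_nonneg_left
        (Finset.sum_le_sum fun τ _ => mul_le_mul_of_nonneg_left (h1 _ _) (hw0 τ)) (hw0 τ')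
    show 1 / 8 * ∑ τ' ∈ A, w τ' * ∑ τ ∈ A, w τ * ρ (φ τ' τ u) (φ τ' τ v) ≤ _
    linarith
  · intro ν hν x y δ hδ hx hy hxy
    have h3 := hR2 ν hν x
    have h4 := hR2 ν hν y
    have h5 : pathDist G ℓ x y ≤
        ∑ τ' ∈ A, w τ' * ∑ τ ∈ A, w τ * pathDist G ℓ (R τ' τ x) x +
        ∑ τ' ∈ A, w τ' * ∑ τ ∈ A, w τ * pathDist G ℓ (R τ' τ y) y +
        K * ∑ τ' ∈ A, w τ' * ∑ τ ∈ A, w τ * ρ (φ τ' τ x) (φ τ' τ y) := by
      have e1 : pathDist G ℓ x y = ∑ τ' ∈ A, w τ' * ∑ τ ∈ A, w τ * pathDist G ℓ x y := by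
        rw [← Finset.sum_mul, hw.total, one_mul, ← Finset.sum_mul, hw.total, one_mul]
      rw [Finset.mul_sum, ← Finset.sum_add_distrib, ← Finset.sum_add_distrib, e1]
      refine Finset.sum_le_sum fun τ' _ => ?_
      have e2 : K * (w τ' * ∑ τ ∈ A, w τ * ρ (φ τ' τ x) (φ τ' τ y)) =
          w τ' * ∑ τ ∈ A, w τ * (K * ρ (φ τ' τ x) (φ τ' τ y)) := by
        rw [Finset.mul_sum, Finset.mul_sum, Finset.mul_sum]
        refine Finset.sum_congr rfl fun τ _ => ?_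
        ring
      rw [e2, ← mul_add, ← mul_add, ← Finset.sum_add_distrib, ← Finset.sum_add_distrib]
      refine mul_le_mul_of_nonneg_left (Finset.sum_le_sum fun τ _ => ?_) (hw0 τ')
      rw [← mul_add, ← mul_add]
      refine mul_le_mul_of_nonneg_left ?_ (hw0 τ)
      have a1 := hd.tri x (R τ' τ x) y
      have a2 := hd.tri (R τ' τ x) (R τ' τ y) y
      have a3 := h2 (φ τ' τ x) (φ τ' τ y)
      have a4 : pathDist G ℓ (φ τ' τ x).1 (φ τ' τ y).1 = pathDist G ℓ (R τ' τ x) (R τ' τ y) := rfl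
      rw [hd.symm x (R τ' τ x)] at a1
      linarith
    have e3 : 13 * K * F x y =
        13 / 8 * (K * ∑ τ' ∈ A, w τ' * ∑ τ ∈ A, w τ * ρ (φ τ' τ x) (φ τ' τ y)) := by
      show 13 * K * (1 / 8 * ∑ τ' ∈ A, w τ' * ∑ τ ∈ A, w τ * ρ (φ τ' τ x) (φ τ' τ y)) = _
      ring
    rw [e3]
    linarith

/-- nonexpansive extension -/
theorem exists_ext {V : Type} [Finite V] {d : V → V → ℝ} (hd : IsMet d) {L : Set V}
    (hL : L.Nonempty) {h : V → ℝ} (hh : ∀ u ∈ L, ∀ v ∈ L, |h u - h v| ≤ d u v) :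
    ∃ h' : V → ℝ, (∀ u ∈ L, h' u = h u) ∧ ∀ u v, |h' u - h' v| ≤ d u v := by
  classical
  have := Fintype.ofFinite V
  have hs : (Finset.univ.filter (· ∈ L)).Nonempty := by
    obtain ⟨a, ha⟩ := hL
    exact ⟨a, mem_filter.2 ⟨mem_univ _, ha⟩⟩
  let g : V → ℝ := fun v => (Finset.univ.filter (· ∈ L)).inf' hs fun a => h a + d a v
  have hg1 : ∀ v, ∀ a ∈ L, g v ≤ h a + d a v := fun v a ha =>
    Finset.inf'_le (fun a => h a + d a v) (mem_filter.2 ⟨mem_univ _, ha⟩)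
  have hg2 : ∀ v, ∃ a ∈ L, g v = h a + d a v := by
    intro v
    obtain ⟨a, ha, hav⟩ := Finset.exists_mem_eq_inf' hs fun a => h a + d a v
    exact ⟨a, (mem_filter.1 ha).2, hav⟩
  have hl : ∀ u v, g u - g v ≤ d u v := by
    intro u v
    obtain ⟨a, ha, hav⟩ := hg2 v
    have h1 := hg1 u a ha
    have h2 := hd.tri a v u
    rw [hd.symm v u] at h2
    linarith
  refine ⟨g, fun u hu => ?_, fun u v => ?_⟩
  · obtain ⟨a, ha, hav⟩ := hg2 u
    have h1 := hg1 u u hu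
    rw [hd.self, add_zero] at h1
    have h2 := (le_abs_self _).trans (hh u hu a ha)
    rw [hd.symm] at h2
    apply le_antisymm h1
    linarith
  · have h1 := hl u v
    have h2 := hl v u
    rw [hd.symm v u] at h2
    rw [abs_le]
    constructor <;> linarith

/-- **One round which deletes a tight set.** -/
theorem step_tight (hTwo : RowTwo) {C : ℝ} (hC : 1 ≤ C) (hM : MStarLL C)
    (V : Type) [Finite V] (G : SimpleGraph V) (σ : Equiv.Perm G.Dart) (ℓ : Sym2 V → ℝ) (h : V → ℝ)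
    (L B₁ B₂ : Set V) (hc : G.Connected) (hP : PlaneMap G σ) (hℓ : ∀ e ∈ G.edgeSet, 0 < ℓ e)
    (hB : W3.Ends σ B₁ B₂) (hL : TightSet G ℓ h L B₁ B₂) :
    ∃ F : V → V → ℝ, IsL1 F ∧ (∀ u v, G.Adj u v → F u v ≤ ℓ s(u, v)) ∧
      ∀ ν : V → V, Near G ℓ L ν → ∀ x y δ, 0 < δ → pathDist G ℓ x (ν x) ≤ δ →
        pathDist G ℓ y (ν y) ≤ 5 / 4 * δ → 8 * δ ≤ pathDist G ℓ x y →
        2 * δ ≤ 2500000000 * C * ((ll (Nat.card V) : ℝ) + 1) * F x y := by
  classical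
  have hd := pathDist_isMet hc hℓ
  have hC0 : 0 < C := by linarith
  have hll : (0 : ℝ) ≤ (ll (Nat.card V) : ℝ) := Nat.cast_nonneg _
  obtain ⟨K, hKe⟩ : ∃ K : ℝ, K = 219073 * 96 * C * 1 * (2 * 1 + 1) * ((ll (Nat.card V) : ℝ) + 3) :=
    ⟨_, rfl⟩
  have hK : 0 < K := by rw [hKe]; positivity
  have hE := Quo.terminals hC hM V G σ ℓ h L B₁ B₂ 1 le_rfl hc hP hℓ hB hL.lip
    (fun v hv hvB => by
      obtain ⟨u, hu, ha, he⟩ := hL.low v hv hvB
      exact ⟨u, hu, ha, by rw [he, one_mul]⟩)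
    (fun v hv hvB => by
      obtain ⟨u, hu, ha, he⟩ := hL.high v hv hvB
      exact ⟨u, hu, ha, by rw [he, one_mul]⟩)
  rw [← hKe] at hE
  obtain ⟨ρ, hρS, hρ1, hρ2, -⟩ := hE.toL1S
  -- the lanes
  have hNf : ∀ S : Set V, ∃ N : Bool → Set V, (G.induce S).Connected → Disjoint S L →
      TwoLanes G ℓ h L S N := by
    intro S
    by_cases h1 : (G.induce S).Connected
    · by_cases h2 : Disjoint S L
      · obtain ⟨N, hN⟩ := hTwo V G σ ℓ h L B₁ B₂ hc hP hℓ hB hL S h1 h2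
        exact ⟨N, fun _ _ => hN⟩
      · exact ⟨fun _ => ∅, fun _ h => absurd h h2⟩
    · exact ⟨fun _ => ∅, fun h => absurd h h1⟩
  choose Nf hNf using hNf
  have hTL : ∀ v ∉ L, TwoLanes G ℓ h L (compSet G L v) (Nf (compSet G L v)) := by
    intro v hv
    refine hNf _ (comp_connected hv) ?_
    rw [Set.disjoint_left]
    exact fun a ha => ReachOff.right ha
  obtain ⟨h', hh1, hh2⟩ := exists_ext hd hL.ne hL.lip
  have hN : Lanes2 G ℓ h' L (fun v => Nf (compSet G L v)) := by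
    refine ⟨fun v hv i => (hTL v hv).sub i, fun v hv i => (hTL v hv).ne i, ?_, ?_, ?_⟩
    · intro v hv i a ha b hb
      rw [hh1 a ((hTL v hv).sub i ha), hh1 b ((hTL v hv).sub i hb)]
      exact (hTL v hv).iso i a ha b hb
    · intro u v hu hv huv
      have e : compSet G L u = compSet G L v := by
        have h1 : ReachOff G L u v := ReachOff.adj hu hv huv
        ext a
        exact ⟨fun h => h1.symm.trans h, fun h => h1.trans h⟩
      show Nf (compSet G L u) = Nf (compSet G L v)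
      rw [e]
    · rintro v hv a ⟨haL, x, hx, hxa⟩
      exact (hTL v hv).att x hx a haL hxa
  obtain ⟨F, hF1, hF2, hF3⟩ := exists_sep hc hℓ hh2 hN (ρ := fun a b => 1 / K * ρ a b)
    (hρS.isL1.smul (by positivity))
    (fun a b => by
      rw [one_div, inv_mul_le_iff₀ hK]
      exact hρ2 a b)
    (fun a b => by
      rw [← mul_assoc, mul_one_div_cancel hK.ne', one_mul]
      exact hρ1 a b)
  refine ⟨F, hF1, hF2, fun ν hν x y δ hδ hx hy hxy => (hF3 ν hν x y δ hδ hx hy hxy).trans ?_⟩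
  refine mul_le_mul_of_nonneg_right ?_ (hF1.nonneg x y)
  have h3 : (0 : ℝ) ≤ C * (ll (Nat.card V) : ℝ) := by positivity
  rw [hKe]
  nlinarith

end Vale.Agent.P235.R2.H899
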