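/-
P235-M, rounds which delete tight sets (helper899, helper686, helper324): the theorem.
-/
import Vale.Agent.P235.R2.H899.Rt3
import Vale.Agent.P235.R2.H324.RowTwo
import Vale.Agent.P235.R2.H686.TR2

namespace Vale.Agent.P235.R2.H899

open Vale.Agent.P235 Vale.Agent.P235.Red Vale.Agent.P235.Swept

theorem stepT {C : ℝ} (hC : 1 ≤ C) (hM : MStarLL C) : H686.StepT (2500000000 * C) :=
  fun V _ G σ ℓ h L B₁ B₂ hc hP hℓ hB hL => step_tight RT.rowTwo hC hM V G σ ℓ h L B₁ B₂ hc hP hℓ hB hL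

/-- **Rounds which delete tight sets.** If `k` rounds, each of which deletes from every piece (plane,
at most `n` vertices) a set as in `Terminals` (slopes one), lead to weighted graphs with distortion
at most `K`, then the distortion is at most a constant times `K + k LL(n)`. -/
theorem peel_embeds {C : ℝ} (hC : 1 ≤ C) (hM : MStarLL C) {K : ℝ} (hK : 1 ≤ K)
    {Q : ∀ (V : Type), SimpleGraph V → (Sym2 V → ℝ) → Prop}
    (hQ : ∀ (V : Type) [Finite V] (G : SimpleGraph V) (ℓ : Sym2 V → ℝ), G.Connected →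
      (∀ e ∈ G.edgeSet, 0 < ℓ e) → Q V G ℓ → EmbedsL1 (pathDist G ℓ) K)
    {n k : ℕ} {V : Type} [Finite V] {G : SimpleGraph V} {ℓ : Sym2 V → ℝ} (hc : G.Connected)
    (hℓ : ∀ e ∈ G.edgeSet, 0 < ℓ e) (h : Swept.Peel Q n k G ℓ) :
    EmbedsL1 (pathDist G ℓ) (12500000000000000 * C * (K + k * LL n)) := by
  have hd := pathDist_isMet hc hℓ
  obtain ⟨Ω, m, μ, f, hf⟩ := H686.trounds_distortion (A := 2500000000 * C) (by linarith)
    (stepT hC hM) Q hK hQ n 0 0 0 k V G ℓ hc hℓ (h.trounds inferInstance hc hℓ)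
  refine ⟨Ω, m, μ, f, fun x y => ⟨(hf x y).1, (hf x y).2.trans
    (mul_le_mul_of_nonneg_right ?_ (hd.nonneg x y))⟩⟩
  have h1 : (0 : ℝ) ≤ k := Nat.cast_nonneg k
  have h2 : (0 : ℝ) ≤ (ll n : ℝ) := Nat.cast_nonneg _
  have h3 : LL n = (ll n : ℝ) + 1 := rfl
  rw [h3]
  have h4 : 0 ≤ (C - 1) * K := mul_nonneg (by linarith) (by linarith)
  have h5 : (0 : ℝ) ≤ (k : ℝ) * (C * ((ll n : ℝ) + 1)) := by positivity
  push_cast
  nlinarith

/-- The same with leaves of distortion at most `K`. -/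
theorem peel_embeds' {C : ℝ} (hC : 1 ≤ C) (hM : MStarLL C) {K : ℝ} (hK : 1 ≤ K)
    {n k : ℕ} {V : Type} [Finite V] {G : SimpleGraph V} {ℓ : Sym2 V → ℝ} (hc : G.Connected)
    (hℓ : ∀ e ∈ G.edgeSet, 0 < ℓ e)
    (h : Swept.Peel (fun _ G ℓ => EmbedsL1 (pathDist G ℓ) K) n k G ℓ) :
    EmbedsL1 (pathDist G ℓ) (12500000000000000 * C * (K + k * LL n)) :=
  peel_embeds hC hM hK (fun _ _ _ _ _ _ h => h) hc hℓ h

end Vale.Agent.P235.R2.H899
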